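import Vale.Agent.P299.H908.Jet

/-!
# P284 / H940: functions which are locally functions of `p` given functions
-/

set_option linter.all false

open Metric Filter Topology Asymptotics Set

noncomputable section

namespace Vale.Agent.P284.H940

variable {E : Type*} [NormedAddCommGroup E] [NormedSpace ℂ E]

/-- a right inverse -/
theorem exists_inv {p : ℕ} (A : E →L[ℂ] (Fin p → ℂ)) (v : Fin p → E)
    (hv : (Matrix.of fun i j : Fin p => A (v j) i).det ≠ 0) :
    ∃ K : (Fin p → ℂ) →L[ℂ] E, ∀ t, A (K t) = t := by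
  classical
  set M : Matrix (Fin p) (Fin p) ℂ := Matrix.of fun i j : Fin p => A (v j) i with hM
  have hu : IsUnit M.det := isUnit_iff_ne_zero.2 hv
  let V : (Fin p → ℂ) →ₗ[ℂ] E := Fintype.linearCombination ℂ v
  let L : (Fin p → ℂ) →ₗ[ℂ] (Fin p → ℂ) := Matrix.toLin' M⁻¹
  have h1 : ∀ t, A (V t) = M.mulVec t := by
    intro t
    simp only [V, Fintype.linearCombination_apply, map_sum, map_smul]
    ext i
    simp [hM, Matrix.mulVec, dotProduct, mul_comm]
  refine ⟨LinearMap.toContinuousLinearMap (V ∘ₗ L), fun t => ?_⟩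
  show A (V (L t)) = t
  rw [h1]
  simp only [L, Matrix.toLin'_apply, Matrix.mulVec_mulVec, Matrix.mul_nonsing_inv _ hu,
    Matrix.one_mulVec]

/-- **constancy on the fibres**: if the differential of `u` vanishes on the kernel of the differential
of the submersion `G`, then `u` is locally a function of `G`. -/
theorem exists_section [CompleteSpace E] {p : ℕ} {G : E → Fin p → ℂ} {y : E}
    (hG : AnalyticAt ℂ G y) (K : (Fin p → ℂ) →L[ℂ] E) (hK : ∀ t, fderiv ℂ G y (K t) = t) :
    ∃ Θ : (Fin p → ℂ) → E, AnalyticAt ℂ Θ 0 ∧ Θ 0 = y ∧ ∀ u : E → ℂ, AnalyticAt ℂ u y →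
      (∀ᶠ z in 𝓝 y, ∀ w, fderiv ℂ G z w = 0 → fderiv ℂ u z w = 0) →
      ∀ᶠ z in 𝓝 y, u z = u (Θ (G z - G y)) := by
  set A := fderiv ℂ G y with hA
  let P : E →L[ℂ] E := ContinuousLinearMap.id ℂ E - K ∘L A
  have hAP : ∀ w, A (P w) = 0 := fun w => by simp [P, hK]
  have hKP : ∀ w, K (A w) + P w = w := fun w => by simp [P]
  let Φ : E → E := fun z => K (G z - G y) + P (z - y)
  have hΦan : AnalyticAt ℂ Φ y := by
    refine AnalyticAt.add ?_ ?_
    · exact (K.analyticAt _).comp (hG.sub analyticAt_const)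
    · exact (P.analyticAt _).comp (analyticAt_id.sub analyticAt_const)
  have hfd : HasStrictFDerivAt Φ (ContinuousLinearEquiv.refl ℂ E : E →L[ℂ] E) y := by
    have h1 : HasStrictFDerivAt (fun z => K (G z - G y)) (K ∘L A) y :=
      K.hasStrictFDerivAt.comp y (hG.hasStrictFDerivAt.sub_const _)
    have h2 : HasStrictFDerivAt (fun z => P (z - y)) (P ∘L ContinuousLinearMap.id ℂ E) y :=
      P.hasStrictFDerivAt.comp y ((hasStrictFDerivAt_id y).sub_const _)
    refine (h1.add h2).congr_fderiv ?_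
    ext w
    exact hKP w
  have hΦ0 : Φ y = 0 := by simp [Φ]
  let O := hfd.toOpenPartialHomeomorph Φ
  have hyO : y ∈ O.source := hfd.mem_toOpenPartialHomeomorph_source
  have hΨan : AnalyticAt ℂ O.symm 0 := by
    have := O.analyticAt_symm' (i := ContinuousLinearEquiv.refl ℂ E) hyO hΦan hfd.hasFDerivAt.fderiv
    rwa [show O y = 0 from hΦ0] at this
  have hΨ0 : O.symm 0 = y := by
    have := O.left_inv hyO
    rwa [show O y = 0 from hΦ0] at this
  have h0t : (0 : E) ∈ O.target := by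
    have := O.map_source hyO
    rwa [show O y = 0 from hΦ0] at this
  -- the identity
  have hid : ∀ ζ ∈ O.target, G (O.symm ζ) = G y + A ζ := by
    intro ζ hζ
    have h1 : Φ (O.symm ζ) = ζ := O.right_inv hζ
    have h2 := congrArg A h1
    simp only [Φ, map_add, hK, hAP, add_zero] at h2
    rw [← h2]
    abel
  refine ⟨fun t => O.symm (K t), ?_, ?_, ?_⟩
  · refine AnalyticAt.comp (g := O.symm) ?_ (K.analyticAt 0)
    rwa [map_zero]
  · simp [hΨ0]
  · intro u hu hker
    have hcont : Tendsto O.symm (𝓝 0) (𝓝 y) := by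
      have := hΨan.continuousAt.tendsto
      rwa [hΨ0] at this
    have h1 : ∀ᶠ ζ in 𝓝 (0 : E), ζ ∈ O.target ∧ AnalyticAt ℂ O.symm ζ ∧
        AnalyticAt ℂ u (O.symm ζ) ∧ AnalyticAt ℂ G (O.symm ζ) ∧
        ∀ w, fderiv ℂ G (O.symm ζ) w = 0 → fderiv ℂ u (O.symm ζ) w = 0 := by
      filter_upwards [O.open_target.mem_nhds h0t, hΨan.eventually_analyticAt,
        hcont.eventually hu.eventually_analyticAt, hcont.eventually hG.eventually_analyticAt,
        hcont.eventually hker] with ζ a b c d e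
      exact ⟨a, b, c, d, e⟩
    obtain ⟨ρ, hρ, hb⟩ := Metric.eventually_nhds_iff_ball.1 h1
    -- constancy in the directions `P`
    have h2 : ∀ ζ ∈ ball (0 : E) ρ, ∀ w, fderiv ℂ (fun ζ => u (O.symm ζ)) ζ (P w) = 0 := by
      intro ζ hζ w
      obtain ⟨ht, hs, hu', hG', hk⟩ := hb ζ hζ
      have h3 : fderiv ℂ (fun ζ => u (O.symm ζ)) ζ =
          (fderiv ℂ u (O.symm ζ)).comp (fderiv ℂ O.symm ζ) :=
        fderiv_comp ζ hu'.differentiableAt hs.differentiableAt
      have h4 : fderiv ℂ (fun ζ => G (O.symm ζ)) ζ =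
          (fderiv ℂ G (O.symm ζ)).comp (fderiv ℂ O.symm ζ) :=
        fderiv_comp ζ hG'.differentiableAt hs.differentiableAt
      have h5 : fderiv ℂ (fun ζ => G (O.symm ζ)) ζ = A := by
        have h6 : (fun ζ => G (O.symm ζ)) =ᶠ[𝓝 ζ] fun ζ => G y + A ζ := by
          filter_upwards [O.open_target.mem_nhds ht] with ζ' h
          exact hid ζ' h
        rw [h6.fderiv_eq, fderiv_const_add, A.fderiv]
      rw [h3]
      apply hk
      have h7 := congrArg (fun B : E →L[ℂ] (Fin p → ℂ) => B (P w)) (h4.symm.trans h5)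
      simpa [hAP] using h7
    have h3 : ∀ ζ, ‖K (A ζ)‖ + ‖P ζ‖ < ρ → u (O.symm ζ) = u (O.symm (K (A ζ))) := by
      intro ζ hζ
      have h4 : ∀ s ∈ Icc (0 : ℝ) 1, K (A ζ) + s • P ζ ∈ ball (0 : E) ρ := by
        intro s hs
        rw [mem_ball_zero_iff]
        refine (norm_add_le _ _).trans_lt (lt_of_le_of_lt ?_ hζ)
        rw [norm_smul, Real.norm_of_nonneg hs.1]
        have := mul_le_mul_of_nonneg_right hs.2 (norm_nonneg (P ζ))
        linarith
      have h5 : ∀ s ∈ Icc (0 : ℝ) 1, HasDerivAt (fun s : ℝ => u (O.symm (K (A ζ) + s • P ζ))) 0 s := by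
        intro s hs
        obtain ⟨ht, hs', hu', hG', hk⟩ := hb _ (h4 s hs)
        have h6 : HasFDerivAt (fun ζ => u (O.symm ζ))
            (fderiv ℂ (fun ζ => u (O.symm ζ)) (K (A ζ) + s • P ζ)) (K (A ζ) + s • P ζ) :=
          (hu'.differentiableAt.comp _ hs'.differentiableAt).hasFDerivAt
        have h7 : HasDerivAt (fun s : ℝ => K (A ζ) + s • P ζ) (P ζ) s := by
          have := ((hasDerivAt_id s).smul_const (P ζ)).const_add (K (A ζ))
          simpa using this
        have h8 := (h6.restrictScalars ℝ).comp_hasDerivAt s h7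
        have h9 := h2 _ (h4 s hs) ζ
        have h10 : HasDerivAt (fun s : ℝ => u (O.symm (K (A ζ) + s • P ζ)))
            (fderiv ℂ (fun ζ => u (O.symm ζ)) (K (A ζ) + s • P ζ) (P ζ)) s := h8
        rwa [h9] at h10
      have h6 := constant_of_has_deriv_right_zero
        (f := fun s : ℝ => u (O.symm (K (A ζ) + s • P ζ))) (a := 0) (b := 1)
        (fun s hs => (h5 s hs).continuousAt.continuousWithinAt)
        (fun s hs => (h5 s (Ico_subset_Icc_self hs)).hasDerivWithinAt) 1 (by norm_num)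
      simpa [hKP] using h6
    have h4 : Tendsto (fun ζ : E => ‖K (A ζ)‖ + ‖P ζ‖) (𝓝 0) (𝓝 0) := by
      have : Continuous fun ζ : E => ‖K (A ζ)‖ + ‖P ζ‖ := by fun_prop
      have := this.tendsto 0
      simpa using this
    have h5 : Tendsto Φ (𝓝 y) (𝓝 0) := by
      have := hΦan.continuousAt.tendsto
      rwa [hΦ0] at this
    filter_upwards [h5.eventually (h4.eventually_lt_const hρ), O.open_source.mem_nhds hyO]
      with z hz hzO
    have h6 := h3 (Φ z) hz
    have h7 : O.symm (Φ z) = z := O.left_inv hzO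
    have h8 : A (Φ z) = G z - G y := by
      simp only [Φ, map_add, hK, hAP, add_zero]
    rw [h7, h8] at h6
    exact h6

/-- vanishing of the jets gives an estimate. -/
theorem isBigO_of_jet {p h : ℕ} {f : (Fin p → ℂ) → ℂ} (hf : AnalyticAt ℂ f 0)
    (hj : ∀ k < h, ∀ v : Fin k → (Fin p → ℂ), iteratedFDeriv ℂ k f 0 v = 0) :
    f =O[𝓝 0] fun t => ‖t‖ ^ h := by
  obtain ⟨q, r, hp⟩ := hf
  have h1 : (fun y : Fin p → ℂ => f (0 + y) - q.partialSum h y) =O[𝓝 0] fun y => ‖y‖ ^ h :=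
    hp.hasFPowerSeriesAt.isBigO_sub_partialSum_pow h
  have h2 : ∀ y, q.partialSum h y = 0 := by
    intro y
    unfold FormalMultilinearSeries.partialSum
    refine Finset.sum_eq_zero fun k hk => ?_
    have h3 := hp.factorial_smul y k
    rw [hj k (Finset.mem_range.1 hk)] at h3
    have h4 : ((k.factorial : ℕ) : ℂ) ≠ 0 := by exact_mod_cast k.factorial_ne_zero
    rw [nsmul_eq_mul] at h3
    exact (mul_eq_zero.1 h3).resolve_left h4
  simpa [h2] using h1

/-- Schwarz lemma -/
theorem schwarz {h : ℕ} {f : E → ℂ} {c : E} {R M : ℝ}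
    (hf : AnalyticOnNhd ℂ f (ball c R)) (hM : ∀ z ∈ ball c R, ‖f z‖ ≤ M)
    (hj : f =O[𝓝 c] fun z => ‖z - c‖ ^ (h + 1)) :
    ∀ z ∈ ball c R, ‖f z‖ ≤ M * (dist z c / R) ^ (h + 1) := by
  intro z hz
  have hR : 0 < R := nonempty_ball.mp ⟨_, hz⟩
  have hfc : f c = 0 := by
    have h1 : Tendsto (fun z : E => ‖z - c‖ ^ (h + 1)) (𝓝 c) (𝓝 0) := by
      have : Continuous fun z : E => ‖z - c‖ ^ (h + 1) := by fun_prop
      have := this.tendsto c
      simpa using this
    have h2 := hj.trans_tendsto h1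
    exact tendsto_nhds_unique (hf c (mem_ball_self hR)).continuousAt.tendsto h2
  have h5 : (fun w : E => f w - f c) =o[𝓝 c] fun w => ‖w - c‖ ^ h := by
    have h6 : (fun w : E => ‖w - c‖ ^ (h + 1)) =o[𝓝 c] fun w => ‖w - c‖ ^ h := by
      have h5 : (fun y : E => ‖y - c‖ ^ h * ‖y - c‖) =o[𝓝 c] fun y => ‖y - c‖ ^ h * 1 := by
        refine (isBigO_refl _ _).mul_isLittleO ?_
        rw [isLittleO_one_iff]
        have : Continuous fun z : E => ‖z - c‖ := by fun_prop
        have := this.tendsto c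
        simpa using this
      simpa [pow_succ] using h5
    refine (hj.trans_isLittleO h6).congr (fun w => ?_) (fun w => rfl)
    simp [hfc]
  have h6 := Complex.dist_le_mul_div_pow_of_mapsTo_ball_of_isLittleO (R₂ := M)
    (fun w hw => (hf w hw).differentiableAt.differentiableWithinAt)
    (fun w hw => by
      rw [mem_closedBall, hfc, dist_zero_right]
      exact hM w hw) h5 hz
  rwa [hfc, dist_zero_right] at h6

/-- everything together: `u` is a function of `G`, and a function with vanishing jets is small. -/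
theorem exists_section' [CompleteSpace E] {p : ℕ} {G : E → Fin p → ℂ} {y : E}
    (hG : AnalyticAt ℂ G y) (v : Fin p → E)
    (hv : (Matrix.of fun i j : Fin p => fderiv ℂ G y (v j) i).det ≠ 0) :
    ∃ Θ : (Fin p → ℂ) → E, AnalyticAt ℂ Θ 0 ∧ Θ 0 = y ∧ ∀ (u : E → ℂ) (h : ℕ), AnalyticAt ℂ u y →
      (∀ᶠ z in 𝓝 y, ∀ w, fderiv ℂ G z w = 0 → fderiv ℂ u z w = 0) →
      (∀ α : Fin p → Fin h, Vale.Agent.P299.H908.jet α 0 (fun t => u (Θ t)) = 0) →
      u =O[𝓝 y] fun z => ‖z - y‖ ^ h := by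
  obtain ⟨K, hK⟩ := exists_inv (fderiv ℂ G y) v hv
  obtain ⟨Θ, hΘ, hΘ0, H⟩ := exists_section hG K hK
  refine ⟨Θ, hΘ, hΘ0, fun u h hu hker hj => ?_⟩
  have h1 := H u hu hker
  have h2 : AnalyticAt ℂ (fun t => u (Θ t)) 0 := by
    refine AnalyticAt.comp (g := u) ?_ hΘ
    rwa [hΘ0]
  have h3 := isBigO_of_jet h2 (Vale.Agent.P299.H908.iteratedFDeriv_eq_zero_of_jet h2 hj)
  have h4 : Tendsto (fun z => G z - G y) (𝓝 y) (𝓝 0) := by
    have : ContinuousAt (fun z => G z - G y) y := hG.continuousAt.sub continuousAt_const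
    have := this.tendsto
    simpa using this
  have h5 : (fun z => G z - G y) =O[𝓝 y] fun z => z - y := hG.differentiableAt.isBigO_sub
  have h6 : (fun z => ‖G z - G y‖ ^ h) =O[𝓝 y] fun z => ‖z - y‖ ^ h := (h5.norm_norm).pow h
  have h7 : u =ᶠ[𝓝 y] fun z => u (Θ (G z - G y)) := h1
  exact h7.trans_isBigO ((h3.comp_tendsto h4).trans h6)

end Vale.Agent.P284.H940
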